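import Vale.Agent.P207.H686.K.SB2
import Vale.Agent.P207.H535.SmLim

/-!
# P207, all dimensions, only `b < 2 a`: the covector trick at the end of step 7

If the tensor `N` has at every frame a 2-jet with error `C ‖x‖ ^ s`, `2 < s`, then, without any
relation `2 b < 3 a`, every fibre of the `S`-bundle contains `α ⊗ E*` for some covector `α ≠ 0`.
-/

set_option linter.all false

open Metric Set Filter Topology
open scoped ContDiff

noncomputable section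

namespace Vale.Agent.P207.H577.Alpha

open Vale.Agent.P207.H686

section poly

variable {E : Type*} [NormedAddCommGroup E] [NormedSpace ℝ E]

theorem poly3 (c : ℝ) (l : E →L[ℝ] ℝ) (b : E →L[ℝ] E →L[ℝ] ℝ) {k : ℕ} (hk : 3 ≤ k) (y : E) :
    iteratedFDeriv ℝ k (fun y : E => c + l y + b y y) y = 0 := by
  obtain ⟨j, rfl⟩ := Nat.exists_eq_add_of_le hk
  have h1 : fderiv ℝ (fun y : E => c + l y + b y y) = fun y => l + (b + b.flip) y := by
    funext z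
    have h2 : HasFDerivAt (fun z : E => b z z) (b.precompR E z (ContinuousLinearMap.id ℝ E) +
        b.precompL E (ContinuousLinearMap.id ℝ E) z) z :=
      b.hasFDerivAt_of_bilinear (hasFDerivAt_id z) (hasFDerivAt_id z)
    have h3 : HasFDerivAt (fun y : E => c + l y + b y y)
        (l + (b.precompR E z (ContinuousLinearMap.id ℝ E) +
          b.precompL E (ContinuousLinearMap.id ℝ E) z)) z :=
      ((l.hasFDerivAt (x := z)).const_add c).add h2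
    rw [h3.fderiv]
    ext w
    simp [ContinuousLinearMap.precompR_apply, ContinuousLinearMap.precompL_apply]
  have h2 : fderiv ℝ (fun y : E => l + (b + b.flip) y) = fun _ => b + b.flip := by
    funext z
    exact (((b + b.flip).hasFDerivAt (x := z)).const_add l).fderiv
  have h3 : ‖iteratedFDeriv ℝ (3 + j) (fun y : E => c + l y + b y y) y‖ = 0 := by
    rw [show 3 + j = (j + 1) + 1 + 1 by ring, ← norm_iteratedFDeriv_fderiv, h1,
      ← norm_iteratedFDeriv_fderiv, h2, iteratedFDeriv_succ_const]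
    simp
  exact norm_eq_zero.1 h3

theorem contDiff_poly (c : ℝ) (l : E →L[ℝ] ℝ) (b : E →L[ℝ] E →L[ℝ] ℝ) :
    ContDiff ℝ ∞ (fun y : E => c + l y + b y y) := by
  have h2 : ContDiff ℝ ∞ (fun y : E => l y) := l.contDiff
  have h3 : ContDiff ℝ ∞ (fun y : E => b y y) :=
    b.isBoundedBilinearMap.contDiff.comp (contDiff_id.prodMk contDiff_id)
  exact (contDiff_const.add h2).add h3

theorem sum_norm (c : ℝ) (l : E →L[ℝ] ℝ) (b : E →L[ℝ] E →L[ℝ] ℝ) {g : E → ℝ} {U : Set E}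
    (hU : IsOpen U) (hg : ContDiffOn ℝ ∞ g U) {k : ℕ} (hk : 3 ≤ k) {y : E} (hy : y ∈ U) :
    ‖iteratedFDeriv ℝ k (fun y : E => (c + l y + b y y) + g y) y‖ =
      ‖iteratedFDeriv ℝ k g y‖ := by
  have hk' : ((k : ℕ) : ℕ∞ω) ≤ ∞ := by exact ENat.LEInfty.out
  have e : (fun y : E => (c + l y + b y y) + g y) = (fun y : E => c + l y + b y y) + g := rfl
  rw [e, iteratedFDeriv_add_apply ((contDiff_poly c l b).contDiffAt.of_le hk')
    ((hg.contDiffAt (hU.mem_nhds hy)).of_le hk'), poly3 c l b hk, zero_add]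

theorem exists_poly {W : Type*} [NormedAddCommGroup W] [NormedSpace ℝ W]
    (a : W →L[ℝ] ℝ) (l : E →L[ℝ] (W →L[ℝ] ℝ)) (Q : E →L[ℝ] E →L[ℝ] (W →L[ℝ] ℝ))
    (B : E →L[ℝ] E) (t : W) : ∃ (c : ℝ) (l' : E →L[ℝ] ℝ) (b' : E →L[ℝ] E →L[ℝ] ℝ),
    ∀ x : E, (a + l (B x) + Q (B x) (B x)) t = c + l' x + b' x x := by
  refine ⟨a t, (ContinuousLinearMap.apply ℝ ℝ t).comp (l.comp B),
    ((ContinuousLinearMap.compL ℝ E (W →L[ℝ] ℝ) ℝ (ContinuousLinearMap.apply ℝ ℝ t)).comp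
      (((ContinuousLinearMap.compL ℝ E E (W →L[ℝ] ℝ)).flip B).comp
        (Q.comp B))), fun x => ?_⟩
  simp

end poly

variable {k0 : ℕ} {E W X : Type*} [NormedAddCommGroup E] [NormedSpace ℝ E]
  [NormedAddCommGroup W] [NormedSpace ℝ W]

theorem ev_bound {e : E → W →L[ℝ] ℝ} {U : Set E} (hU : IsOpen U) (he : ContDiffOn ℝ ∞ e U)
    (w : W) (k : ℕ) {x : E} (hx : x ∈ U) :
    ‖iteratedFDeriv ℝ k (fun x => e x w) x‖ ≤ ‖w‖ * ‖iteratedFDeriv ℝ k e x‖ := by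
  let ev : (W →L[ℝ] ℝ) →L[ℝ] ℝ := ContinuousLinearMap.apply ℝ ℝ w
  have h1 : ContDiffAt ℝ ∞ e x := he.contDiffAt (hU.mem_nhds hx)
  have h2 : ‖iteratedFDeriv ℝ k (⇑ev ∘ e) x‖ ≤ ‖ev‖ * ‖iteratedFDeriv ℝ k e x‖ :=
    ev.norm_iteratedFDeriv_comp_left h1 (n := k) (by exact ENat.LEInfty.out)
  have h3 : ‖ev‖ ≤ ‖w‖ := by
    refine ContinuousLinearMap.opNorm_le_bound _ (norm_nonneg _) fun f => ?_
    calc ‖f w‖ ≤ ‖f‖ * ‖w‖ := f.le_opNorm _
      _ = ‖w‖ * ‖f‖ := mul_comm _ _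
  exact h2.trans (by gcongr)

/-- a model of the decomposable forms `α ⊗ β` in `W` -/
structure Dec (D : ZDk k0 E W X) where
  r : (E →L[ℝ] ℝ) → (E →L[ℝ] ℝ) → W
  norm_le : ∀ α β, ‖r α β‖ ≤ ‖α‖ * ‖β‖
  cont : ∀ β, Continuous fun α => r α β
  St_r : ∀ {v A L v'}, D.St v A L v' → ∀ α β,
    L.symm (r α β) = r (α.comp (A : E →L[ℝ] E)) (β.comp (A : E →L[ℝ] E))

theorem ch_mu (D : ZDk k0 E W X) {v : X} {n : ℕ} {A : E ≃L[ℝ] E}
    {L : W ≃L[ℝ] W} {v' : X}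
    (h : Ch D.St v n A L v') : ∀ x, ‖A x‖ ≤ D.mu ^ n * ‖x‖ := by
  have hm : 0 < D.mu := lt_of_lt_of_le one_pos D.mu1
  induction h with
  | zero => intro x; simp
  | @succ n A L v' A' L' v'' h h' ih =>
    intro x
    have h1 : (A.trans A') x = A' (A x) := rfl
    rw [h1]
    calc ‖A' (A x)‖ ≤ D.mu * ‖A x‖ := D.St_A' h' _
      _ ≤ D.mu * (D.mu ^ n * ‖x‖) := by
        have := ih x
        gcongr
      _ = D.mu ^ (n + 1) * ‖x‖ := by ring

theorem ch_form (D : ZDk k0 E W X) (P : Dec D) {v : X} {n : ℕ} {A : E ≃L[ℝ] E}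
    {L : W ≃L[ℝ] W} {v' : X}
    (h : Ch D.St v n A L v') : ∀ α β,
      L.symm (P.r α β) = P.r (α.comp (A : E →L[ℝ] E)) (β.comp (A : E →L[ℝ] E)) := by
  induction h with
  | zero => intro α β; rfl
  | @succ n A L v' A' L' v'' h h' ih =>
    intro α β
    have h1 : (L.trans L').symm (P.r α β) = L.symm (L'.symm (P.r α β)) := rfl
    rw [h1, P.St_r h', ih]
    rfl

theorem ch_ex (D : ZDk k0 E W X) (n : ℕ) :
    ∀ v' : X, ∃ v A L, Ch D.St v n A L v' := by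
  induction n with
  | zero => intro v'; exact ⟨v', _, _, Ch.zero v'⟩
  | succ n ih =>
    intro v''
    obtain ⟨v', A', L', h'⟩ := D.St_prev v''
    obtain ⟨v, A, L, h⟩ := ih v'
    exact ⟨v, _, _, Ch.succ h h'⟩

/-- a covector which is expanded least -/
theorem exists_covector [Nontrivial E] (A : E ≃L[ℝ] E) :
    ∃ α : E →L[ℝ] ℝ, ‖α‖ = 1 ∧
      ‖α.comp (A : E →L[ℝ] E)‖ ≤ 2 / ‖(A.symm : E →L[ℝ] E)‖ := by
  set m := ‖(A.symm : E →L[ℝ] E)‖ with hm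
  have hm0 : 0 < m := A.symm.norm_pos
  obtain ⟨x, hx1, hx2⟩ := ContinuousLinearMap.exists_lt_apply_of_lt_opNorm
    (A.symm : E →L[ℝ] E) (r := m / 2) (by linarith)
  have hx0 : A.symm x ≠ 0 := by
    intro h0
    have : ‖(A.symm : E →L[ℝ] E) x‖ = 0 := by
      rw [ContinuousLinearEquiv.coe_coe, h0, norm_zero]
    linarith
  obtain ⟨γ, hγ1, hγ2⟩ := exists_dual_vector ℝ (A.symm x) (norm_ne_zero_iff.2 hx0)
  set δ : E →L[ℝ] ℝ := γ.comp (A.symm : E →L[ℝ] E) with hδ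
  have hδx : δ x = ‖A.symm x‖ := by
    simp only [hδ, ContinuousLinearMap.comp_apply, ContinuousLinearEquiv.coe_coe]
    simpa using hγ2
  have hδm : m / 2 ≤ ‖δ‖ := by
    have h1 : ‖δ x‖ ≤ ‖δ‖ * ‖x‖ := δ.le_opNorm x
    rw [hδx, norm_norm] at h1
    have h2 : ‖δ‖ * ‖x‖ ≤ ‖δ‖ * 1 := by gcongr
    have h3 : m / 2 < ‖A.symm x‖ := hx2
    linarith
  have hδ0 : 0 < ‖δ‖ := by linarith
  refine ⟨(‖δ‖)⁻¹ • δ, ?_, ?_⟩
  · rw [norm_smul, norm_inv, norm_norm]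
    field_simp
  · have h1 : ((‖δ‖)⁻¹ • δ).comp (A : E →L[ℝ] E) = (‖δ‖)⁻¹ • γ := by
      ext z
      simp [hδ]
    rw [h1, norm_smul, norm_inv, norm_norm, hγ1, mul_one, inv_eq_one_div,
      div_le_div_iff₀ hδ0 hm0]
    linarith

/-- the approximation along `n` steps -/
theorem step [Nontrivial E] (D : ZDk k0 E W X) (P : Dec D)
    {s C R : ℝ} (hs : 1 ≤ s) (hC : 0 ≤ C) (hR1 : R ≤ 1)
    (h : ∀ v, ∃ (a : W →L[ℝ] ℝ) (l : E →L[ℝ] (W →L[ℝ] ℝ)) (Q : E →L[ℝ] E →L[ℝ] (W →L[ℝ] ℝ)),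
        ∀ x ∈ ball (0 : E) R, ‖D.N v x - (a + l x + Q x x)‖ ≤ C * ‖x‖ ^ s)
    (v : X) (n : ℕ) : ∃ α : E →L[ℝ] ℝ, ‖α‖ = 1 ∧ ∀ β : E →L[ℝ] ℝ, ∃ G : E → ℝ,
      ContDiffOn ℝ ∞ G (ball 0 R) ∧
      (∀ k, max k0 3 ≤ k → ∀ x ∈ ball (0 : E) R,
        ‖iteratedFDeriv ℝ k G x‖ ≤ D.ME k * ‖β‖) ∧
      ∀ x ∈ ball (0 : E) R, |G x - D.N v x (P.r α β)| ≤
        2 * C * ‖β‖ * (D.mu * D.lam ^ (s - 1)) ^ n := by
  obtain ⟨u, A, L, hc⟩ := ch_ex D n v
  obtain ⟨e, he, hb, hN⟩ := D.ch_N hc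
  obtain ⟨a, l, Q, hj⟩ := h u
  obtain ⟨α, hα1, hα2⟩ := exists_covector A
  have hR : ball (0 : E) R ⊆ ball (0 : E) 1 := ball_subset_ball hR1
  have hmu : 0 < D.mu := lt_of_lt_of_le one_pos D.mu1
  set m := ‖(A.symm : E →L[ℝ] E)‖ with hm
  have hm0 : 0 < m := A.symm.norm_pos
  have hml : m ≤ D.lam ^ n :=
    ContinuousLinearMap.opNorm_le_bound _ (pow_nonneg D.lam0.le _) fun x => D.ch_A hc x
  refine ⟨α, hα1, fun β => ?_⟩
  set t := L.symm (P.r α β) with ht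
  have hLt : L t = P.r α β := by rw [ht, L.apply_symm_apply]
  have htn : ‖t‖ ≤ 2 / m * (D.mu ^ n * ‖β‖) := by
    have h1 : t = P.r (α.comp (A : E →L[ℝ] E)) (β.comp (A : E →L[ℝ] E)) := by
      rw [ht, ch_form D P hc]
    rw [h1]
    have h2 : ‖β.comp (A : E →L[ℝ] E)‖ ≤ D.mu ^ n * ‖β‖ := by
      refine ContinuousLinearMap.opNorm_le_bound _ (by positivity) fun x => ?_
      calc ‖β (A x)‖ ≤ ‖β‖ * ‖A x‖ := β.le_opNorm _
        _ ≤ ‖β‖ * (D.mu ^ n * ‖x‖) := by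
          have := ch_mu D hc x
          gcongr
        _ = D.mu ^ n * ‖β‖ * ‖x‖ := by ring
    refine (P.norm_le _ _).trans ?_
    gcongr
  -- the quadratic polynomial
  obtain ⟨c, l', b', hpoly⟩ := exists_poly a l Q (A.symm : E →L[ℝ] E) t
  have hes : ContDiffOn ℝ ∞ (fun x => e x (P.r α β)) (ball 0 R) :=
    (he.mono hR).clm_apply contDiffOn_const
  refine ⟨fun x => (c + l' x + b' x x) + e x (P.r α β),
    (contDiff_poly c l' b').contDiffOn.add hes, ?_, ?_⟩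
  · intro k hk x hx
    rw [sum_norm c l' b' isOpen_ball hes ((le_max_right _ _).trans hk) hx]
    refine (ev_bound isOpen_ball he (P.r α β) k (hR hx)).trans ?_
    have h3 : ‖P.r α β‖ ≤ ‖β‖ := by
      have := P.norm_le α β
      rwa [hα1, one_mul] at this
    have h4 := hb k ((le_max_left _ _).trans hk) x (hR hx)
    calc ‖P.r α β‖ * ‖iteratedFDeriv ℝ k e x‖ ≤ ‖β‖ * D.ME k := by gcongr
      _ = D.ME k * ‖β‖ := mul_comm _ _
  · intro x hx
    have hxn : ‖x‖ < R := by simpa using hx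
    have h1 := hN x (hR hx) t
    rw [hLt] at h1
    have hAx : A.symm x ∈ ball (0 : E) R := by
      rw [mem_ball_zero_iff]
      have h2 := D.ch_A hc x
      have h3 : D.lam ^ n * ‖x‖ ≤ 1 * ‖x‖ := by
        gcongr
        exact pow_le_one₀ D.lam0.le D.lam1.le
      linarith
    have h2 := hj _ hAx
    rw [h1]
    have h3 : (c + l' x + b' x x) + e x (P.r α β) - (D.N u (A.symm x) t + e x (P.r α β)) =
        -((D.N u (A.symm x) - (a + l (A.symm x) + Q (A.symm x) (A.symm x))) t) := by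
      have hp := hpoly x
      simp only [ContinuousLinearEquiv.coe_coe] at hp
      rw [ContinuousLinearMap.sub_apply, hp]
      ring
    rw [h3, abs_neg]
    have hx1 : ‖A.symm x‖ ≤ m := by
      have h4 : ‖(A.symm : E →L[ℝ] E) x‖ ≤ m * ‖x‖ := (A.symm : E →L[ℝ] E).le_opNorm x
      have h5 : m * ‖x‖ ≤ m * 1 := by gcongr; linarith
      calc ‖A.symm x‖ = ‖(A.symm : E →L[ℝ] E) x‖ := rfl
        _ ≤ m := by linarith
    have h4 : |(D.N u (A.symm x) - (a + l (A.symm x) + Q (A.symm x) (A.symm x))) t| ≤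
        (C * m ^ s) * (2 / m * (D.mu ^ n * ‖β‖)) := by
      have h5 : |(D.N u (A.symm x) - (a + l (A.symm x) + Q (A.symm x) (A.symm x))) t| ≤
          ‖D.N u (A.symm x) - (a + l (A.symm x) + Q (A.symm x) (A.symm x))‖ * ‖t‖ := by
        rw [← Real.norm_eq_abs]
        exact (D.N u (A.symm x) - (a + l (A.symm x) + Q (A.symm x) (A.symm x))).le_opNorm t
      have h6 : ‖A.symm x‖ ^ s ≤ m ^ s :=
        Real.rpow_le_rpow (norm_nonneg _) hx1 (by linarith)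
      refine h5.trans ?_
      have h7 : ‖D.N u (A.symm x) - (a + l (A.symm x) + Q (A.symm x) (A.symm x))‖ ≤ C * m ^ s :=
        h2.trans (by gcongr)
      gcongr
    refine h4.trans ?_
    have h5 : m ^ s = m * m ^ (s - 1) := by
      rw [← Real.rpow_one_add' hm0.le (by linarith)]
      congr 1; ring
    have h6 : m ^ (s - 1) ≤ (D.lam ^ (s - 1)) ^ n := by
      have h7 : m ^ (s - 1) ≤ (D.lam ^ n) ^ (s - 1) :=
        Real.rpow_le_rpow hm0.le hml (by linarith)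
      refine h7.trans (le_of_eq ?_)
      rw [← Real.rpow_natCast, ← Real.rpow_natCast, ← Real.rpow_mul D.lam0.le,
        ← Real.rpow_mul D.lam0.le, mul_comm]
    calc (C * m ^ s) * (2 / m * (D.mu ^ n * ‖β‖))
        = 2 * C * ‖β‖ * (D.mu ^ n * m ^ (s - 1)) := by
          rw [h5]; field_simp
      _ ≤ 2 * C * ‖β‖ * (D.mu ^ n * (D.lam ^ (s - 1)) ^ n) := by gcongr
      _ = 2 * C * ‖β‖ * (D.mu * D.lam ^ (s - 1)) ^ n := by rw [mul_pow]

/-- **the covector trick**: uniform 2-jets with error `C ‖x‖ ^ s` and `mu * lam ^ (s - 1) < 1`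
(`b < 2 a` when `s` is close to 3) put `α ⊗ E*` into every fibre of the `S`-bundle. -/
theorem alpha [FiniteDimensional ℝ E] [FiniteDimensional ℝ W] [Nontrivial E]
    (D : ZDk k0 E W X) (P : Dec D)
    {s C R : ℝ} (hs : 1 ≤ s) (hgap : D.mu * D.lam ^ (s - 1) < 1) (hR : 0 < R) (hR1 : R ≤ 1)
    (h : ∀ v, ∃ (a : W →L[ℝ] ℝ) (l : E →L[ℝ] (W →L[ℝ] ℝ)) (Q : E →L[ℝ] E →L[ℝ] (W →L[ℝ] ℝ)),
        ∀ x ∈ ball (0 : E) R, ‖D.N v x - (a + l x + Q x x)‖ ≤ C * ‖x‖ ^ s)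
    (v : X) : ∃ α : E →L[ℝ] ℝ, α ≠ 0 ∧ ∀ β : E →L[ℝ] ℝ, P.r α β ∈ D.Sm v := by
  have hC' : ∀ v, ∃ (a : W →L[ℝ] ℝ) (l : E →L[ℝ] (W →L[ℝ] ℝ))
      (Q : E →L[ℝ] E →L[ℝ] (W →L[ℝ] ℝ)),
        ∀ x ∈ ball (0 : E) R, ‖D.N v x - (a + l x + Q x x)‖ ≤ |C| * ‖x‖ ^ s := by
    intro v
    obtain ⟨a, l, Q, hj⟩ := h v
    refine ⟨a, l, Q, fun x hx => (hj x hx).trans ?_⟩
    have : 0 ≤ ‖x‖ ^ s := Real.rpow_nonneg (norm_nonneg _) _
    exact mul_le_mul_of_nonneg_right (le_abs_self C) this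
  have hst := fun n => step D P hs (abs_nonneg C) hR1 hC' v n
  choose α hα1 hα2 using hst
  have hmu : 0 < D.mu := lt_of_lt_of_le one_pos D.mu1
  -- a convergent subsequence
  obtain ⟨α₀, hα₀, ψ, hψ, hlim⟩ := (isCompact_sphere (0 : E →L[ℝ] ℝ) 1).tendsto_subseq
    (x := α) (fun n => by simpa using hα1 n)
  have hα₀1 : ‖α₀‖ = 1 := by simpa using hα₀
  refine ⟨α₀, fun h0 => by rw [h0, norm_zero] at hα₀1; exact one_ne_zero hα₀1.symm, fun β => ?_⟩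
  choose G hG1 hG2 hG3 using fun n => hα2 n β
  set q := D.mu * D.lam ^ (s - 1) with hq
  have hq0 : 0 ≤ q := mul_nonneg hmu.le (Real.rpow_nonneg D.lam0.le _)
  have hrk : Tendsto (fun n => P.r (α (ψ n)) β) atTop (𝓝 (P.r α₀ β)) :=
    ((P.cont β).tendsto α₀).comp hlim
  have hKE : 0 ≤ D.K := D.K_nonneg v
  have hmain := H535.smooth_of_limit_ge (ι := ℕ) (l := atTop) (max k0 3)
    (D.K * ‖β‖ + 2 * |C| * ‖β‖) (fun k => D.ME k * ‖β‖) (f := fun n => G (ψ n))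
    (g := fun x => D.N v x (P.r α₀ β)) (c := 0) (R := R) (fun n => hG1 (ψ n))
    (fun n y hy => ?_) (fun n k hk y hy => hG2 (ψ n) k hk y hy) (fun y hy => ?_)
  · exact D.sm_max isOpen_ball (ball_subset_ball hR1) ⟨0, mem_ball_self hR⟩ hmain.1
  · have h1 := hG3 (ψ n) y hy
    have h2 : q ^ (ψ n) ≤ 1 := pow_le_one₀ hq0 hgap.le
    have h3 : ‖D.N v y (P.r (α (ψ n)) β)‖ ≤ D.K * ‖β‖ := by
      calc ‖D.N v y (P.r (α (ψ n)) β)‖ ≤ ‖D.N v y‖ * ‖P.r (α (ψ n)) β‖ :=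
            ContinuousLinearMap.le_opNorm _ _
        _ ≤ D.K * (‖α (ψ n)‖ * ‖β‖) := by
            have h4 := D.bd v y (ball_subset_ball hR1 hy)
            have h5 := P.norm_le (α (ψ n)) β
            gcongr
        _ = D.K * ‖β‖ := by rw [hα1, one_mul]
    have h4 : ‖G (ψ n) y‖ ≤ ‖G (ψ n) y - D.N v y (P.r (α (ψ n)) β)‖ +
        ‖D.N v y (P.r (α (ψ n)) β)‖ := by
      have := norm_add_le (G (ψ n) y - D.N v y (P.r (α (ψ n)) β)) (D.N v y (P.r (α (ψ n)) β))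
      rwa [sub_add_cancel] at this
    have h5 : ‖G (ψ n) y - D.N v y (P.r (α (ψ n)) β)‖ ≤ 2 * |C| * ‖β‖ := by
      rw [Real.norm_eq_abs]
      refine h1.trans ?_
      have : 0 ≤ 2 * |C| * ‖β‖ := by positivity
      calc 2 * |C| * ‖β‖ * q ^ (ψ n) ≤ 2 * |C| * ‖β‖ * 1 := by gcongr
        _ = _ := mul_one _
    linarith
  · have h1 : Tendsto (fun n => 2 * |C| * ‖β‖ * q ^ (ψ n)) atTop (𝓝 0) := by
      have h2 : Tendsto (fun n : ℕ => q ^ n) atTop (𝓝 0) :=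
        tendsto_pow_atTop_nhds_zero_of_lt_one hq0 hgap
      have h3 := (h2.comp hψ.tendsto_atTop).const_mul (2 * |C| * ‖β‖)
      simpa using h3
    have h2 : Tendsto (fun n => G (ψ n) y - D.N v y (P.r (α (ψ n)) β)) atTop (𝓝 0) :=
      squeeze_zero_norm (fun n => by rw [Real.norm_eq_abs]; exact hG3 (ψ n) y hy) h1
    have h3 : Tendsto (fun n => D.N v y (P.r (α (ψ n)) β)) atTop (𝓝 (D.N v y (P.r α₀ β))) :=
      ((D.N v y).continuous.tendsto _).comp hrk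
    have h4 := h2.add h3
    simpa using h4

/-- the form `u w ↦ α u * β w` -/
def rk (α β : E →L[ℝ] ℝ) : E →L[ℝ] E →L[ℝ] ℝ := α.smulRight β

theorem rk_apply (α β : E →L[ℝ] ℝ) (u w : E) : rk α β u w = α u * β w := by
  simp [rk]

/-- the instance for `W` = all bilinear forms -/
def decBF {X : Type*} (D : ZDk k0 E (E →L[ℝ] E →L[ℝ] ℝ) X)
    (hL : ∀ (v : X) (A : E ≃L[ℝ] E) (L : (E →L[ℝ] E →L[ℝ] ℝ) ≃L[ℝ] (E →L[ℝ] E →L[ℝ] ℝ)) (v' : X),
      D.St v A L v' → ∀ (s : E →L[ℝ] E →L[ℝ] ℝ) (u w : E), L.symm s u w = s (A u) (A w)) :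
    Dec D where
  r := rk
  norm_le := fun α β => by
    unfold rk
    rw [ContinuousLinearMap.norm_smulRight_apply]
  cont := fun β => by
    have h : Continuous fun α : E →L[ℝ] ℝ => ContinuousLinearMap.smulRight α β := by
      have := (ContinuousLinearMap.smulRightL ℝ E (E →L[ℝ] ℝ)).flip β |>.continuous
      exact this
    exact h
  St_r := fun {v A L v'} h α β => by
    ext u w
    rw [hL v A L v' h, rk_apply, rk_apply]
    rfl

end Vale.Agent.P207.H577.Alpha
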